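import Vale.Agent.P197.Twist

namespace Vale.Agent.Results.P197.Saxl

open Finset

section
variable {n : ℕ} {lam μ ν : YoungDiagram}

/-- permutations preserving every row of the tableau `t` -/
def rowGroup (t : Fin n ≃ ν.cells) : Finset (Equiv.Perm (Fin n)) :=
  Finset.univ.filter fun g => ∀ i, (t (g i)).1.1 = (t i).1.1

/-- permutations preserving every column of the tableau `t` -/
def colGroup (t : Fin n ≃ ν.cells) : Finset (Equiv.Perm (Fin n)) :=
  Finset.univ.filter fun g => ∀ i, (t (g i)).1.2 = (t i).1.2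

/-- the Young symmetrizer: column antisymmetrizer times row symmetrizer -/
noncomputable def youngSym (t : Fin n ≃ ν.cells) : MonoidAlgebra ℂ (Equiv.Perm (Fin n)) :=
  (∑ c ∈ colGroup t, MonoidAlgebra.single c ((Equiv.Perm.sign c : ℤ) : ℂ)) *
    ∑ r ∈ rowGroup t, MonoidAlgebra.single r 1

theorem left_apply (g : Equiv.Perm (Fin n)) (x : MonoidAlgebra ℂ (Equiv.Perm (Fin n))) :
    Representation.leftRegular ℂ (Equiv.Perm (Fin n)) g x = MonoidAlgebra.single g 1 * x := by
  induction x using MonoidAlgebra.induction_linear with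
  | zero => simp
  | add x y hx hy => rw [map_add, hx, hy, mul_add]
  | single h c => simp [MonoidAlgebra.single_mul_single]

/-- the left ideal generated by the Young symmetrizer, inside the regular representation -/
noncomputable def spechtSub (t : Fin n ≃ ν.cells) :
    Subrepresentation (Representation.leftRegular ℂ (Equiv.Perm (Fin n))) where
  toSubmodule := LinearMap.range (LinearMap.mulRight ℂ (youngSym t))
  apply_mem_toSubmodule g _ := fun ⟨x, hx⟩ =>
    ⟨MonoidAlgebra.single g 1 * x, by rw [left_apply, ← hx]; exact mul_assoc _ _ _⟩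

/-- the Specht module -/
noncomputable def specht (t : Fin n ≃ ν.cells) :
    Representation ℂ (Equiv.Perm (Fin n)) (spechtSub t).toSubmodule :=
  (spechtSub t).toRepresentation

/-- the Kronecker coefficient -/
noncomputable def kronecker (s : Fin n ≃ lam.cells) (s' : Fin n ≃ μ.cells)
    (t : Fin n ≃ ν.cells) : ℕ :=
  Module.finrank ℂ ((specht t).IntertwiningMap ((specht s).tprod (specht s')))

end

/-- the staircase diagram with rows `m, m - 1, …, 1` -/
def staircase (m : ℕ) : YoungDiagram where
  cells := (range m ×ˢ range m).filter fun x => x.1 + x.2 < m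
  isLowerSet := fun x y h hx => by
    have h1 := h.1
    have h2 := h.2
    simp only [coe_filter, mem_product, mem_range, Set.mem_setOf_eq] at hx ⊢
    omega

open Vale.Agent.P197

theorem mem_stair {m : ℕ} {x : ℕ × ℕ} : x ∈ (staircase m).cells ↔ x.1 + x.2 < m := by
  simp only [staircase, mem_filter, mem_product, mem_range]; omega

theorem stair_row (m i : ℕ) : (staircase m).rowLen i = m - i := by
  refine eq_of_forall_lt_iff fun j => ?_
  rw [← YoungDiagram.mem_iff_lt_rowLen, ← YoungDiagram.mem_cells, mem_stair]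
  simp only; omega

theorem stair_card (m : ℕ) : (staircase m).card = m * (m + 1) / 2 := by
  have h := Shape.card (S := (staircase m).cells) (a := Prod.fst) (b := Prod.snd)
    (h := fun c => m - c) ⟨fun p _ q _ => Prod.ext, fun p hp => by
      have := mem_stair.1 hp; omega, fun i c h => ⟨(i, c), mem_stair.2 (by simp only; omega),
      rfl, rfl⟩⟩ (I := range (m + 1)) fun p hp => by
      have := mem_stair.1 hp
      rw [mem_range]; omega
  have h1 := sum_range_reflect (fun c => c) (m + 1)
  simp only [Nat.add_sub_cancel] at h1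
  rw [YoungDiagram.card, h, h1, sum_range_id, mul_comm]
  rfl

/-- permutation representation on complex functions of states -/
def perm (n K : ℕ) : Representation ℂ (Equiv.Perm (Fin n)) (St (Fin n) (Fin K) → ℂ) where
  toFun g :=
    { toFun := fun f σ => f (σ ∘ g)
      map_add' := fun _ _ => rfl
      map_smul' := fun _ _ => rfl }
  map_one' := rfl
  map_mul' _ _ := rfl

theorem alg_young {n : ℕ} {ν : YoungDiagram} (t : Fin n ≃ ν.cells) {V : Type} [AddCommMonoid V]
    [Module ℂ V] (ρ : Representation ℂ (Equiv.Perm (Fin n)) V) (y : V) :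
    ρ.asAlgebraHom (youngSym t) y = ∑ c ∈ colGroup t, ∑ r ∈ rowGroup t,
      ((sn c : ℝ) : ℂ) • ρ (c * r) y := by
  simp [youngSym, sum_mul_sum, MonoidAlgebra.single_mul_single, sn]

section
variable {n m : ℕ} (s : Fin n ≃ (staircase m).cells)

theorem stair_lt (p : Fin n) : (s p).1.1 + (s p).1.2 < m := mem_stair.1 (s p).2

/-- the state recording the rows -/
def rowSt : St (Fin n) (Fin m) := fun p => some ⟨(s p).1.1, by have := stair_lt s p; omega⟩

theorem tab_row : Tab m univ (fun p => m - (s p).1.2) (rowSt s) := by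
  refine ⟨by simp, fun p _ => ⟨_, rfl⟩, fun p _ => ?_, fun p _ q _ x => ?_, fun x hx => ?_⟩
  · have := stair_lt s p
    refine mem_coe.2 (mem_tri.2 ?_)
    simp only [rowSt, P197.val, Option.elim_some]; omega
  · have := stair_lt s p
    have := stair_lt s q
    simp only [rowSt, P197.val, Option.elim_some, Prod.mk.injEq] at x
    exact s.injective (Subtype.ext (Prod.ext x.2 (by omega)))
  · have := mem_tri.1 (mem_coe.1 hx)
    refine ⟨s.symm ⟨(x.2, m - x.1), mem_stair.2 (by simp only; omega)⟩, by simp, ?_⟩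
    simp only [rowSt, P197.val, Option.elim_some, Equiv.apply_symm_apply]
    exact Prod.ext (by simp only; omega) rfl

/-- the map to the permutation module -/
noncomputable def theta : MonoidAlgebra ℂ (Equiv.Perm (Fin n)) →ₗ[ℂ] St (Fin n) (Fin m) → ℂ :=
  LinearMap.applyₗ (fun σ => ((dlt (rowSt s) σ : ℝ) : ℂ)) ∘ₗ (perm n m).asAlgebraHom.toLinearMap

theorem theta_mul (g : Equiv.Perm (Fin n)) (x : MonoidAlgebra ℂ (Equiv.Perm (Fin n)))
    (σ : St (Fin n) (Fin m)) : theta s (MonoidAlgebra.single g 1 * x) σ = theta s x (σ ∘ g) := by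
  simp only [theta, LinearMap.comp_apply, AlgHom.toLinearMap_apply, map_mul,
    Representation.asAlgebraHom_single_one]
  rfl

theorem theta_young (σ : St (Fin n) (Fin m)) : theta s (youngSym s) σ = (rowGroup s).card
    * ((an univ (fun p => m - (s p).1.2) (dlt (rowSt s)) σ : ℝ) : ℂ) := by
  have : Stab univ (fun p => m - (s p).1.2) = colGroup s := by
    ext c
    simp only [mem_Stab, colGroup, mem_filter, mem_univ, not_true, true_and,
      IsEmpty.forall_iff, implies_true]
    exact forall_congr' fun p => by have := stair_lt s p; have := stair_lt s (c p); omega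
  simp only [theta, LinearMap.comp_apply, AlgHom.toLinearMap_apply, LinearMap.applyₗ_apply_apply,
    alg_young, an_apply, this, Complex.ofReal_sum, mul_sum, Finset.sum_apply]
  refine sum_congr rfl fun c _ => ?_
  rw [← nsmul_eq_mul, ← sum_const]
  refine sum_congr rfl fun r hr => ?_
  have h2 : rowSt s ∘ r = rowSt s := funext fun p => by
    simp only [rowSt, Function.comp_apply, (mem_filter.1 hr).2 p]
  have h3 : (σ ∘ c) ∘ r = rowSt s ↔ σ ∘ c = rowSt s := by
    nth_rewrite 1 [← h2]
    exact r.surjective.injective_comp_right.eq_iff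
  change _ * ((dlt (rowSt s) ((σ ∘ c) ∘ r) : ℝ) : ℂ) = _
  simp only [dlt, h3, Complex.ofReal_mul]

/-- evaluation functional on the tensor square -/
noncomputable def evl (σ τ : St (Fin n) (Fin m)) :
    TensorProduct ℂ (spechtSub s).toSubmodule (spechtSub s).toSubmodule →ₗ[ℂ] ℂ :=
  LinearMap.mul' ℂ ℂ ∘ₗ TensorProduct.map
    (LinearMap.proj σ ∘ₗ theta s ∘ₗ (spechtSub s).toSubmodule.subtype)
    (LinearMap.proj τ ∘ₗ theta s ∘ₗ (spechtSub s).toSubmodule.subtype)

theorem evl_act (σ τ : St (Fin n) (Fin m)) (h : Equiv.Perm (Fin n))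
    (x y : (spechtSub s).toSubmodule) :
    evl s σ τ (((specht s).tprod (specht s)) h (TensorProduct.tmul ℂ x y))
      = theta s x.1 (σ ∘ h) * theta s y.1 (τ ∘ h) := by
  rw [← theta_mul, ← theta_mul, ← left_apply, ← left_apply]
  rfl

end

theorem pos_of_ne {n : ℕ} {ν : YoungDiagram} (t : Fin n ≃ ν.cells) {V : Type} [AddCommGroup V]
    [Module ℂ V] [Module.Finite ℂ V] (W : Representation ℂ (Equiv.Perm (Fin n)) V) (y : V)
    (h : W.asAlgebraHom (youngSym t) y ≠ 0) :
    0 < Module.finrank ℂ ((specht t).IntertwiningMap W) := by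
  let φ : (specht t).IntertwiningMap W := LinearMap.intertwiningMap_of_isIntertwiningMap _ _
    (LinearMap.applyₗ y ∘ₗ W.asAlgebraHom.toLinearMap ∘ₗ (spechtSub t).toSubmodule.subtype)
    fun h z => by
      change W.asAlgebraHom (Representation.leftRegular ℂ _ h z.1) y = W h (W.asAlgebraHom z.1 y)
      rw [left_apply, map_mul, Representation.asAlgebraHom_single_one]
      rfl
  exact Module.finrank_pos_iff_exists_ne_zero.2 ⟨φ, fun h2 => h
    (congrArg (fun ψ : (specht t).IntertwiningMap W => ψ ⟨youngSym t, 1, one_mul _⟩) h2)⟩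

theorem result (m : ℕ) (hm : 1 ≤ m) :
    (∀ i, (staircase m).rowLen i = m - i) ∧ (staircase m).card = m * (m + 1) / 2 ∧
    ∀ (ν : YoungDiagram) (t : Fin (m * (m + 1) / 2) ≃ ν.cells)
      (s : Fin (m * (m + 1) / 2) ≃ (staircase m).cells), 0 < kronecker s s t := by
  refine ⟨stair_row m, stair_card m, fun ν t s => ?_⟩
  have hn : 2 * Fintype.card (Fin (m * (m + 1) / 2)) = m * (m + 1) := by
    rw [Fintype.card_fin, Nat.two_mul_div_two_of_even (Nat.even_mul_succ_self m)]
  generalize m * (m + 1) / 2 = n at t s hn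
  obtain ⟨g, g', h1⟩ := main' (a := fun p => (t p).1.1) (b := fun p => (t p).1.2) le_rfl
    ⟨fun p _ q _ x y => t.injective (Subtype.ext (Prod.ext x y)),
      fun p _ => YoungDiagram.mem_iff_lt_colLen.1 (t p).2,
      fun i c x => ⟨t.symm ⟨(i, c), YoungDiagram.mem_iff_lt_colLen.2 x⟩, by simp⟩⟩
    (fun c d => ν.colLen_anti c d) hn (tab_row s)
  obtain ⟨σ, h1⟩ := Function.ne_iff.1 h1
  obtain ⟨τ, h1⟩ := Function.ne_iff.1 h1
  refine pos_of_ne (V := TensorProduct ℂ (spechtSub s).toSubmodule (spechtSub s).toSubmodule) t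
    ((specht s).tprod (specht s))
    (TensorProduct.tmul ℂ ⟨MonoidAlgebra.single g 1 * youngSym s, _, rfl⟩
      ⟨MonoidAlgebra.single g' 1 * youngSym s, _, rfl⟩) fun h3 => h1 ?_
  rw [alg_young] at h3
  have h4 := congrArg (evl s σ τ) h3
  simp only [map_sum, map_smul, evl_act, theta_mul, theta_young, map_zero,
    smul_eq_mul] at h4
  have h5 : ((rowGroup s).card : ℂ) ≠ 0 := by
    exact_mod_cast card_ne_zero_of_mem (show (1 : Equiv.Perm (Fin n)) ∈ _ by simp [rowGroup])
  have h7 : Stab univ (fun p => (t p).1.1) = rowGroup t := by ext; simp [mem_Stab, rowGroup]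
  have h8 : Stab univ (fun p => (t p).1.2) = colGroup t := by ext; simp [mem_Stab, colGroup]
  refine Complex.ofReal_injective (mul_left_cancel₀ (mul_ne_zero h5 h5) ?_)
  rw [YY_apply, h7, h8, Pi.zero_apply, Pi.zero_apply, Complex.ofReal_zero, mul_zero, ← h4]
  simp only [Complex.ofReal_sum, mul_sum, tens, act_apply, Complex.ofReal_mul]
  exact sum_congr rfl fun c _ => sum_congr rfl fun r _ => by ring

end Vale.Agent.Results.P197.Saxl
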